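import Vale.Agent.P032.S5.H483.Irr

/-!
# P032: rhombus and weight lemmas for irredundant palettes

`Irr.strip` : strip lemma; `Irr.rh_arc` : arcs of a rhombus centre accumulate at the vertex;
`Irr.rh_unique` : one centre per edge; `Irr.rh_five` : [5]; `Irr.rhombus` : clean rhombus.
-/

open Set Filter Topology Metric

noncomputable section

namespace Vale.Agent.P032.Six

variable {k : ℕ} {U : Fin k → Set ℂ} {T : ℂ → Set (Fin k)}

/-- open arcs of `S(q)` with constant palette `P` accumulate at `u` -/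
def Acc (T : ℂ → Set (Fin k)) (q : ℂ) (P : Set (Fin k)) (u : ℂ) : Prop :=
  ∀ V ∈ 𝓝 u, ∃ y ∈ V, dist y q = 1 ∧ ∀ᶠ y' in 𝓝[sphere q 1] y, T y' = P

theorem Acc.dist {q u : ℂ} {P : Set (Fin k)} (h : Acc T q P u) : dist u q = 1 := by
  have h1 : u ∈ closure (sphere q 1) := by
    rw [mem_closure_iff_nhds]
    intro V hV
    obtain ⟨y, hy, hy1, -⟩ := h V hV
    exact ⟨y, hy, hy1⟩
  rw [isClosed_sphere.closure_eq] at h1
  exact h1

namespace Irr

theorem acc_sub (h : Irr U T) {q u : ℂ} {P : Set (Fin k)} (hA : Acc T q P u) : P ⊆ T u := by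
  intro i hi
  have h1 : u ∈ closure {x | i ∈ T x} := by
    rw [mem_closure_iff_nhds]
    intro V hV
    obtain ⟨y, hy, hy1, hy2⟩ := hA V hV
    have h3 : T y = P := hy2.self_of_nhdsWithin (show y ∈ sphere q 1 from hy1)
    exact ⟨y, hy, show i ∈ T y by rw [h3]; exact hi⟩
  rw [(h.closed i).closure_eq] at h1
  exact h1

/-- elementary planar fact used for opposite centres -/
theorem tangent_aux {A B δ : ℂ} (h1 : (A + 2 * δ).re ^ 2 + (A + 2 * δ).im ^ 2 = 1)
    (h2 : (B + δ).re ^ 2 + (B + δ).im ^ 2 = 1) (hA : A.re ^ 2 + A.im ^ 2 = 1)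
    (hB : B.re ^ 2 + B.im ^ 2 = 1) (hδ : 2 * ‖δ‖ < |cr A B|) : δ = 0 := by
  have e1 : A.re * δ.re + A.im * δ.im = -(δ.re ^ 2 + δ.im ^ 2) := by
    simp at h1; nlinarith
  have e2 : B.re * δ.re + B.im * δ.im = -(δ.re ^ 2 + δ.im ^ 2) / 2 := by
    simp at h2; nlinarith
  set n := δ.re ^ 2 + δ.im ^ 2 with hn
  have hn0 : 0 ≤ n := by positivity
  have hnn : ‖δ‖ ^ 2 = n := by rw [Complex.sq_norm, Complex.normSq_apply]; ring
  have e3 : cr A B * δ.re = -n * B.im + n / 2 * A.im := by
    unfold cr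
    linear_combination B.im * e1 - A.im * e2
  have e4 : cr A B * δ.im = -(n / 2) * A.re + n * B.re := by
    unfold cr
    linear_combination A.re * e2 - B.re * e1
  have e5 : cr A B ^ 2 * n = n ^ 2 * (1 + 1 / 4 - (A.re * B.re + A.im * B.im)) := by
    have : cr A B ^ 2 * n = (cr A B * δ.re) ^ 2 + (cr A B * δ.im) ^ 2 := by rw [hn]; ring
    rw [this, e3, e4]
    have : (-n * B.im + n / 2 * A.im) ^ 2 + (-(n / 2) * A.re + n * B.re) ^ 2 =
      n ^ 2 * ((B.re ^ 2 + B.im ^ 2) + (A.re ^ 2 + A.im ^ 2) / 4 -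
        (A.re * B.re + A.im * B.im)) := by ring
    rw [this, hA, hB]
  have e6 : -(A.re * B.re + A.im * B.im) ≤ 1 := by
    nlinarith [sq_nonneg (A.re + B.re), sq_nonneg (A.im + B.im)]
  have e7 : cr A B ^ 2 * n ≤ n ^ 2 * (9 / 4) := by
    rw [e5]
    exact mul_le_mul_of_nonneg_left (by linarith) (by positivity)
  have e8 : (2 * ‖δ‖) ^ 2 < cr A B ^ 2 := by
    rw [← sq_abs (cr A B)]
    exact pow_lt_pow_left₀ hδ (by positivity) two_ne_zero
  have e9 : n = 0 := by
    by_contra hne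
    have hpos : 0 < n := lt_of_le_of_ne hn0 (Ne.symm hne)
    have : cr A B ^ 2 ≤ n * (9 / 4) := by
      have h3 : n * cr A B ^ 2 ≤ n * (n * (9 / 4)) := by nlinarith
      exact le_of_mul_le_mul_left h3 hpos
    nlinarith
  have : ‖δ‖ ^ 2 = 0 := by rw [hnn, e9]
  simpa using this

/-- **Strip lemma.**  `q` a common neighbour of `u` and `u'`, `T q ⊆ P ∪ T u'`.  Then `P`-arcs of no
other circle `S(p)` accumulate at `u`. -/
theorem strip (h : Irr U T) {u u' q p : ℂ} {P : Set (Fin k)} (h3' : (T u').ncard ≤ 3)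
    (hne : u ≠ u') (hq : dist q u = 1) (hq' : dist q u' = 1) (hne2 : u + u' ≠ 2 * q)
    (hsub : T q ⊆ P ∪ T u') (hPu : T u ≠ P) (hpq : p ≠ q) (hA : Acc T p P u) : False := by
  obtain ⟨t0, ht0⟩ := exists_cis (u := q - u') (by rw [← dist_eq_norm]; exact hq')
  have hq0 : u' + cis t0 = q := by rw [← ht0]; ring
  have hcr0 : cr (q - u') (q - u) ≠ 0 := cr_ne hq' hq (Ne.symm hne) (by rw [add_comm]; exact hne2)
  have hcr : cr (cis t0) (u' + cis t0 - u) ≠ 0 := by
    rw [hq0, ← ht0]; exact hcr0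
  -- neighbourhood of `q`
  have hc : Continuous fun t : ℝ => u' + cis t := continuous_const.add continuous_cis
  have hN : ∀ᶠ t in 𝓝 t0, T (u' + cis t) ⊆ T q ∧ u' + cis t ≠ p ∧
      (q + p ≠ 2 * u → 2 * dist (u' + cis t) q < dist (q + p) (2 * u)) := by
    refine Filter.Eventually.and ?_ (Filter.Eventually.and ?_ ?_)
    · have h1 : ∀ᶠ x in 𝓝 (u' + cis t0), T x ⊆ T q := by rw [hq0]; exact h.nhd q
      exact hc.continuousAt.eventually h1
    · exact hc.continuousAt.eventually (isOpen_ne.mem_nhds (show u' + cis t0 ≠ p by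
        rw [hq0]; exact hpq.symm))
    · by_cases hqp : q + p = 2 * u
      · exact Eventually.of_forall fun t h1 => absurd hqp h1
      · have h1 : 0 < dist (q + p) (2 * u) := dist_pos.2 hqp
        have h2 : Continuous fun t : ℝ => 2 * dist (u' + cis t) q := by fun_prop
        have h3 : 2 * dist (u' + cis t0) q < dist (q + p) (2 * u) := by
          rw [hq0, dist_self, mul_zero]; exact h1
        filter_upwards [h2.continuousAt.eventually (Iio_mem_nhds h3)] with t ht _
        exact ht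
  obtain ⟨η, hη, hη'⟩ := Metric.eventually_nhds_iff.1 hN
  have hC := crossing (c := u') (q₀ := u) (t0 := t0) (by rw [hq0]; exact hq) hcr hη
  -- closeness
  have hclose : ∀ᶠ w in 𝓝 u, 2 * ‖w - u‖ < |cr (q - u') (q - u)| ∧
      (q + p ≠ 2 * u → 4 * dist w u < dist (q + p) (2 * u)) := by
    refine Filter.Eventually.and ?_ ?_
    · have h2 : Continuous fun w : ℂ => 2 * ‖w - u‖ := by fun_prop
      have h3 : 2 * ‖u - u‖ < |cr (q - u') (q - u)| := by
        rw [sub_self, norm_zero, mul_zero]; exact abs_pos.2 hcr0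
      exact h2.continuousAt.eventually (Iio_mem_nhds h3)
    · by_cases hqp : q + p = 2 * u
      · exact Eventually.of_forall fun t h1 => absurd hqp h1
      · have h1 : 0 < dist (q + p) (2 * u) := dist_pos.2 hqp
        have h2 : Continuous fun w : ℂ => 4 * dist w u := by fun_prop
        have h3 : 4 * dist u u < dist (q + p) (2 * u) := by rw [dist_self, mul_zero]; exact h1
        filter_upwards [h2.continuousAt.eventually (Iio_mem_nhds h3)] with t ht _
        exact ht
  obtain ⟨w, ⟨hwC, hwc⟩, hwp, hwP⟩ := hA _ (hC.and hclose)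
  obtain ⟨t, ht, ht1⟩ := hwC
  obtain ⟨hq'1, hq'2, hq'3⟩ := hη' (y := t) (by rw [Real.dist_eq]; exact ht)
  set q' := u' + cis t with hq'def
  have hTw : T w = P := hwP.self_of_nhdsWithin (show w ∈ sphere p 1 from hwp)
  have hwu : w ≠ u := fun h1 => hPu (by rw [← h1]; exact hTw)
  have hq'u : dist q' u' = 1 := by rw [hq'def]; exact dist_add_cis u' t
  have hno : ∀ i ∈ P, i ∉ Pal U q' := by
    intro i hi hcon
    have hJ : ∀ᶠ x in 𝓝[sphere p 1] w, i ∈ Pal U x := by
      filter_upwards [hwP] with x hx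
      exact h.sub x (by rw [hx]; exact hi)
    rcases h.mx.partner_line hwp hJ (by rw [dist_comm]; exact ht1) hcon with h1 | h1
    · exact hq'2 h1
    · by_cases hqp : q + p = 2 * u
      · -- tangent case
        have hp : p = 2 * u - q := by linear_combination hqp
        have e1 : q' - u' = (q - u') + 2 * (w - u) := by
          rw [hp] at h1; linear_combination h1
        have e2 : w - p = (q - u) + (w - u) := by rw [hp]; ring
        have hsq : ∀ {x y : ℂ}, dist x y = 1 → (x - y).re ^ 2 + (x - y).im ^ 2 = 1 := by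
          intro x y hxy
          have := (dist_eq_one_iff x y).1 hxy
          simp only [Complex.sub_re, Complex.sub_im]
          linarith
        have := tangent_aux (A := q - u') (B := q - u) (δ := w - u)
          (by rw [← e1]; exact hsq hq'u) (by rw [← e2]; exact hsq hwp) (hsq hq') (hsq hq) hwc.1
        exact hwu (sub_eq_zero.1 this)
      · have h2 := hq'3 hqp
        have h3 := hwc.2 hqp
        have h4 : dist (q + p) (2 * u) ≤ dist q' q + 2 * dist w u := by
          have : q + p - 2 * u = -(q' - q) + 2 * (w - u) := by linear_combination h1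
          rw [dist_eq_norm, dist_eq_norm, dist_eq_norm, this]
          refine (norm_add_le _ _).trans ?_
          rw [norm_neg, norm_mul]; simp
        have h5 := dist_nonneg (x := q') (y := q)
        have h6 := dist_nonneg (x := w) (y := u)
        linarith
  refine h.not_sub hq'u h3' fun j hj => ?_
  rcases hsub (hq'1 hj) with h1 | h1
  · exact absurd (h.sub q' hj) (hno j h1)
  · exact h1

/-- either `P`-arcs of `S(q)` accumulate at `u`, or `S(q)` carries `r` near `u` -/
theorem acc_or (h : Irr U T) {u q : ℂ} {P : Set (Fin k)} {r : Fin k} (hTu : T u ⊆ insert r P)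
    (hPq : P ⊆ T q) (hP2 : P.ncard ≤ 2) :
    Acc T q P u ∨ ∀ᶠ y in 𝓝[sphere q 1] u, r ∈ T y := by
  by_cases hA : Acc T q P u
  · exact Or.inl hA
  right
  unfold Acc at hA
  push Not at hA
  obtain ⟨V, hV, hno⟩ := hA
  filter_upwards [mem_nhdsWithin_of_mem_nhds (eventually_mem_nhds_iff.2 hV),
    mem_nhdsWithin_of_mem_nhds (h.nhd u), self_mem_nhdsWithin] with y hyV hysub hyS
  by_contra hr
  have hyP : T y ⊆ P := by
    intro j hj
    rcases hTu (hysub hj) with h1 | h1
    · exact absurd (h1 ▸ hj) hr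
    · exact h1
  obtain ⟨q0, hq0V, hq01, hq0c, hq0s, hq02, -⟩ :=
    h.arc_of_sub (x := q) (y := y) hyS (hyP.trans hPq) hyV
  have hq0P : T q0 = P :=
    Set.eq_of_subset_of_ncard_le (hq0s.trans hyP) (hP2.trans hq02) (Set.toFinite _)
  exact (hno q0 hq0V hq01) (hq0c.mono fun x hx => not_not.2 (hx.trans hq0P))

/-- **Rhombus, arc form** (975 consequence 1).  `u`, `u'` cover all colours, `q` a common neighbour,
`T u = P + r`, `T q` meets `T u` in the pair `P`: then `P`-arcs of `S(q)` accumulate at `u`. -/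
theorem rh_arc (h : Irr U T) {u u' q : ℂ} {P : Set (Fin k)} {r : Fin k}
    (h3' : (T u').ncard ≤ 3) (hcov : ∀ i, i ∈ T u ∨ i ∈ T u') (hne : u ≠ u')
    (hq : dist q u = 1) (hq' : dist q u' = 1) (hne2 : u + u' ≠ 2 * q)
    (hTu : T u = insert r P) (hr : r ∉ P) (hP2 : P.ncard ≤ 2) (hP0 : P.Nonempty)
    (hPq : T q ∩ T u = P) : Acc T q P u := by
  have hPsub : P ⊆ T q := by rw [← hPq]; exact inter_subset_left
  have hPu : T u ≠ P := by
    intro h1
    exact hr (by rw [← h1, hTu]; exact mem_insert _ _)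
  rcases h.acc_or (q := q) (u := u) hTu.subset hPsub hP2 with h1 | h1
  · exact h1
  -- second common neighbour
  exfalso
  set q2 := u + u' - q with hq2
  have d1 : dist q2 u = 1 := by
    rw [dist_eq_norm]
    have : q2 - u = -(q - u') := by rw [hq2]; ring
    rw [this, norm_neg, ← dist_eq_norm]; exact hq'
  have d2 : dist q2 u' = 1 := by
    rw [dist_eq_norm]
    have : q2 - u' = -(q - u) := by rw [hq2]; ring
    rw [this, norm_neg, ← dist_eq_norm]; exact hq
  have n1 : q2 ≠ q := fun h2 => hne2 (by linear_combination -hq2 + h2)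
  have n2 : q2 + q ≠ 2 * u := fun h2 => hne (by linear_combination hq2 - h2)
  have n3 : u + u' ≠ 2 * q2 := fun h2 => hne2 (by linear_combination -h2 - 2 * hq2)
  have hrq2 : r ∉ Pal U q2 := by
    intro h2
    rcases h.mx.partner_line (u := q) (p := u) (t := r) (by rw [dist_comm]; exact hq)
      (h1.mono fun y hy => h.sub y hy) (by rw [dist_comm]; exact d1) h2 with h3 | h3
    · exact n1 h3
    · exact n2 h3
  have hsub2 : T q2 ∩ T u ⊆ P := by
    rintro j ⟨hj1, hj2⟩
    rw [hTu] at hj2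
    rcases hj2 with h3 | h3
    · exact absurd (h.sub _ (h3 ▸ hj1)) hrq2
    · exact h3
  obtain ⟨s1, hs1, hs1u, -⟩ := h.five h3' hcov hne d1 d2 n3 r
  obtain ⟨s2, hs2, hs2u, hs12⟩ := h.five h3' hcov hne d1 d2 n3 s1
  have hpair : ({s1, s2} : Set (Fin k)) = P := by
    refine Set.eq_of_subset_of_ncard_le ?_ ?_ (Set.toFinite _)
    · rintro m (rfl | rfl)
      · exact hsub2 ⟨hs1, hs1u⟩
      · exact hsub2 ⟨hs2, hs2u⟩
    · rw [ncard_pair hs12.symm]; exact hP2
  have hPsub2 : P ⊆ T q2 := by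
    rw [← hpair]
    rintro m (rfl | rfl)
    · exact hs1
    · exact hs2
  have hPq2 : T q2 ∩ T u = P := Subset.antisymm hsub2 fun m hm => ⟨hPsub2 hm, by
    rw [hTu]; exact Or.inr hm⟩
  have hcovq : T q ⊆ P ∪ T u' := by
    intro j hj
    rcases hcov j with h2 | h2
    · exact Or.inl (by rw [← hPq]; exact ⟨hj, h2⟩)
    · exact Or.inr h2
  rcases h.acc_or (q := q2) (u := u) hTu.subset hPsub2 hP2 with h4 | h4
  · exact h.strip h3' hne hq hq' hne2 hcovq hPu n1 h4
  · -- `r`-partners of `u` on two lines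
    have hux : u ∈ XX U := by
      obtain ⟨i, hi⟩ := hP0
      exact h.mem_XX (by rw [dist_comm]; exact hq) (by rw [hTu]; exact Or.inr hi)
        (h.sub _ (hPsub hi))
    obtain ⟨y, hy1, hy2⟩ := h.partner_XX hux r
    have a1 := h.mx.partner_line (u := q) (p := u) (t := r) (by rw [dist_comm]; exact hq)
      (h1.mono fun y hy => h.sub y hy) hy1 hy2
    have a2 := h.mx.partner_line (u := q2) (p := u) (t := r) (by rw [dist_comm]; exact d1)
      (h4.mono fun y hy => h.sub y hy) hy1 hy2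
    rcases a1 with a1 | a1 <;> rcases a2 with a2 | a2
    · exact n1 (a2.symm.trans a1)
    · exact n2 (by rw [a1, add_comm] at a2; exact a2)
    · exact n2 (by rw [a2] at a1; exact a1)
    · exact n1 (by linear_combination a2 - a1)

/-- **One centre per edge.** -/
theorem rh_unique (h : Irr U T) {u u' q u'' p : ℂ} {P : Set (Fin k)} {r : Fin k}
    (h3' : (T u').ncard ≤ 3) (hcov : ∀ i, i ∈ T u ∨ i ∈ T u') (hne : u ≠ u')
    (hq : dist q u = 1) (hq' : dist q u' = 1) (hne2 : u + u' ≠ 2 * q)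
    (h3'' : (T u'').ncard ≤ 3) (hcov'' : ∀ i, i ∈ T u ∨ i ∈ T u'') (hne'' : u ≠ u'')
    (hp : dist p u = 1) (hp' : dist p u'' = 1) (hne2'' : u + u'' ≠ 2 * p)
    (hTu : T u = insert r P) (hr : r ∉ P) (hP2 : P.ncard ≤ 2) (hP0 : P.Nonempty)
    (hPq : T q ∩ T u = P) (hPp : T p ∩ T u = P) : p = q := by
  by_contra hpq
  have hA := h.rh_arc h3'' hcov'' hne'' hp hp' hne2'' hTu hr hP2 hP0 hPp
  refine h.strip h3' hne hq hq' hne2 ?_ ?_ hpq hA
  · intro j hj
    rcases hcov j with h2 | h2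
    · exact Or.inl (by rw [← hPq]; exact ⟨hj, h2⟩)
    · exact Or.inr h2
  · intro h1
    exact hr (by rw [← h1, hTu]; exact mem_insert _ _)

/-- the missing colour of the centre belongs to the second centre -/
theorem rh_mem (h : Irr U T) {z u u' w : ℂ} {P : Set (Fin k)} {e : Fin k}
    (h3' : (T u').ncard ≤ 3) (hcov : ∀ i, i ∈ T u ∨ i ∈ T u') (hne : u ≠ u')
    (hw : dist w u = 1) (hw' : dist w u' = 1) (hne2 : u + u' ≠ 2 * w)
    (hTu : T u = insert e P) (he : e ∉ P) (hzw : z ≠ w) (hA : Acc T z P u) : e ∈ T w := by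
  by_contra hew
  refine h.strip h3' hne hw hw' hne2 ?_ ?_ hzw hA
  · intro j hj
    rcases hcov j with h2 | h2
    · rw [hTu] at h2
      rcases h2 with rfl | h2
      · exact absurd hj hew
      · exact Or.inl h2
    · exact Or.inr h2
  · intro h1
    exact he (by rw [← h1, hTu]; exact mem_insert _ _)

/-- a two-element subset of `{e, a, b}` containing `e` -/
theorem pair_of {S : Set (Fin k)} {e a b : Fin k} (hea : e ≠ a) (heb : e ≠ b) (hab : a ≠ b)
    (hS : S ⊆ {e, a, b}) (he : e ∈ S) (h2 : S.ncard = 2) :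
    (S = {e, a} ∧ b ∉ S) ∨ (S = {e, b} ∧ a ∉ S) := by
  by_cases ha : a ∈ S
  · left
    have h1 : ({e, a} : Set (Fin k)) = S := by
      refine Set.eq_of_subset_of_ncard_le ?_ ?_ (Set.toFinite _)
      · rintro m (rfl | rfl)
        · exact he
        · exact ha
      · rw [ncard_pair hea, h2]
    refine ⟨h1.symm, fun hb => ?_⟩
    rw [← h1] at hb
    rcases hb with hb | hb
    · exact heb hb.symm
    · exact hab (by simpa using hb.symm)
  · right
    by_cases hb : b ∈ S
    · have h1 : ({e, b} : Set (Fin k)) = S := by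
        refine Set.eq_of_subset_of_ncard_le ?_ ?_ (Set.toFinite _)
        · rintro m (rfl | rfl)
          · exact he
          · exact hb
        · rw [ncard_pair heb, h2]
      exact ⟨h1.symm, ha⟩
    · exfalso
      have h1 : S ⊆ {e} := by
        intro m hm
        rcases hS hm with h2 | h2 | h2
        · exact h2
        · exact absurd (h2 ▸ hm) ha
        · rw [mem_singleton_iff] at h2
          exact absurd (h2 ▸ hm) hb
      have h2' := Set.ncard_le_ncard h1 (Set.toFinite _)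
      rw [ncard_singleton] at h2'
      omega

/-- **Clean rhombus, one side.**  `z` a centre with `P`-arcs at `u`, `T u = e + {a,b}`, `u'`
complementary, `w` the second common centre with `|T w| = 4`: `T w` meets `T u` in a pair `{e,x}`, and
exact `ex`-arcs of `S(w)` accumulate at `u`. -/
theorem rh_side (h : Irr U T) {z u u' w : ℂ} {e a b : Fin k}
    (h3 : (T u).ncard ≤ 3) (h3' : (T u').ncard ≤ 3) (hcov : ∀ i, i ∈ T u ∨ i ∈ T u')
    (hdis : Disjoint (T u) (T u')) (hne : u ≠ u')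
    (hw : dist w u = 1) (hw' : dist w u' = 1) (hne2 : u + u' ≠ 2 * w)
    (hTu : T u = {e, a, b}) (hea : e ≠ a) (heb : e ≠ b) (hab : a ≠ b)
    (hzw : z ≠ w) (hA : Acc T z {a, b} u) (h4 : (T w).ncard = 4) :
    (T w ∩ T u = {e, a} ∧ b ∉ T w ∧ Acc T w {e, a} u) ∨
      (T w ∩ T u = {e, b} ∧ a ∉ T w ∧ Acc T w {e, b} u) := by
  have he : e ∈ T w := h.rh_mem h3' hcov hne hw hw' hne2 hTu (by simp [hea, heb]) hzw hA
  obtain ⟨s1, hs1, hs1u, -⟩ := h.five h3' hcov hne hw hw' hne2 e
  obtain ⟨s2, hs2, hs2u, hs12⟩ := h.five h3' hcov hne hw hw' hne2 s1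
  have hcov' : ∀ i, i ∈ T u' ∨ i ∈ T u := fun i => (hcov i).symm
  obtain ⟨t1, ht1, ht1u, -⟩ := h.five h3 hcov' hne.symm hw' hw (by rw [add_comm]; exact hne2) e
  obtain ⟨t2, ht2, ht2u, ht12⟩ := h.five h3 hcov' hne.symm hw' hw (by rw [add_comm]; exact hne2) t1
  have hg1 : 2 ≤ (T w ∩ T u).ncard := by
    rw [← ncard_pair hs12.symm]
    refine Set.ncard_le_ncard ?_ (Set.toFinite _)
    rintro m (rfl | rfl)
    · exact ⟨hs1, hs1u⟩
    · exact ⟨hs2, hs2u⟩
  have hg2 : 2 ≤ (T w ∩ T u').ncard := by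
    rw [← ncard_pair ht12.symm]
    refine Set.ncard_le_ncard ?_ (Set.toFinite _)
    rintro m (rfl | rfl)
    · exact ⟨ht1, ht1u⟩
    · exact ⟨ht2, ht2u⟩
  have hsum : (T w ∩ T u).ncard + (T w ∩ T u').ncard = 4 := by
    rw [← ncard_union_eq ?_ (Set.toFinite _) (Set.toFinite _), ← h4]
    · congr 1
      ext i
      constructor
      · rintro (hi | hi)
        · exact hi.1
        · exact hi.1
      · intro hi
        rcases hcov i with h5 | h5
        · exact Or.inl ⟨hi, h5⟩
        · exact Or.inr ⟨hi, h5⟩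
    · exact hdis.mono inter_subset_right inter_subset_right
  have hg3 : (T w ∩ T u).ncard = 2 := by omega
  have heu : e ∈ T w ∩ T u := ⟨he, by rw [hTu]; simp⟩
  rcases pair_of hea heb hab (S := T w ∩ T u) (by rw [hTu]; exact inter_subset_right) heu hg3
    with ⟨h6, h7⟩ | ⟨h6, h7⟩
  · left
    have hb : b ∉ T w := fun hb => h7 ⟨hb, by rw [hTu]; simp⟩
    refine ⟨h6, hb, ?_⟩
    refine h.rh_arc (r := b) h3' hcov hne hw hw' hne2 ?_ ?_ ?_ ⟨e, by simp⟩ h6
    · rw [hTu]; ext i; simp only [mem_insert_iff, mem_singleton_iff]; tauto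
    · simp only [mem_insert_iff, mem_singleton_iff, not_or]; exact ⟨heb.symm, hab.symm⟩
    · rw [ncard_pair hea]
  · right
    have ha : a ∉ T w := fun ha => h7 ⟨ha, by rw [hTu]; simp⟩
    refine ⟨h6, ha, ?_⟩
    refine h.rh_arc (r := a) h3' hcov hne hw hw' hne2 ?_ ?_ ?_ ⟨e, by simp⟩ h6
    · rw [hTu]; ext i; simp only [mem_insert_iff, mem_singleton_iff]; tauto
    · simp only [mem_insert_iff, mem_singleton_iff, not_or]; exact ⟨hea.symm, hab⟩
    · rw [ncard_pair heb]

/-- the geometry of a rhombus `z, v, q, w = v + q - z` -/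
theorem rh_geo {z v q : ℂ} (hv : dist v z = 1) (hq : dist q z = 1) (hvq : v ≠ q)
    (hop : v + q ≠ 2 * z) :
    dist (v + q - z) v = 1 ∧ dist (v + q - z) q = 1 ∧ v + q ≠ 2 * (v + q - z) ∧
      z ≠ v + q - z := by
  refine ⟨?_, ?_, fun h1 => hop (by linear_combination -h1), fun h1 => hop (by linear_combination -h1)⟩
  · rw [dist_eq_norm, show v + q - z - v = q - z by ring, ← dist_eq_norm]; exact hq
  · rw [dist_eq_norm, show v + q - z - q = v - z by ring, ← dist_eq_norm]; exact hv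

end Irr

/-! ### six colours -/

namespace Irr

variable {U : Fin 6 → Set ℂ} {T : ℂ → Set (Fin 6)}

/-- **Clean rhombus.**  `T v = {e,a,b}`, `T q = {f,c,d}` complementary points of `S(z)`, ends of
`ab`- resp. `cd`-arcs of `S(z)`, `w = v + q - z` with `|T w| = 4`. -/
theorem rhombus (h : Irr U T) {z v q : ℂ} {a b c d e f : Fin 6} (hnd : [a, b, c, d, e, f].Nodup)
    (hv : dist v z = 1) (hq : dist q z = 1) (hop : v + q ≠ 2 * z)
    (hTv : T v = {e, a, b}) (hTq : T q = {f, c, d}) (hAv : Acc T z {a, b} v)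
    (hAq : Acc T z {c, d} q) (h4 : (T (v + q - z)).ncard = 4) :
    ((T (v + q - z) ∩ T v = {e, a} ∧ b ∉ T (v + q - z) ∧ Acc T (v + q - z) {e, a} v) ∨
      (T (v + q - z) ∩ T v = {e, b} ∧ a ∉ T (v + q - z) ∧ Acc T (v + q - z) {e, b} v)) ∧
    ((T (v + q - z) ∩ T q = {f, c} ∧ d ∉ T (v + q - z) ∧ Acc T (v + q - z) {f, c} q) ∨
      (T (v + q - z) ∩ T q = {f, d} ∧ c ∉ T (v + q - z) ∧ Acc T (v + q - z) {f, d} q)) := by
  have hall : ∀ i, i = a ∨ i = b ∨ i = c ∨ i = d ∨ i = e ∨ i = f := by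
    intro i
    have h1 : (Finset.univ : Finset (Fin 6)) = [a, b, c, d, e, f].toFinset :=
      (Finset.eq_univ_of_card _ (by rw [List.toFinset_card_of_nodup hnd]; rfl)).symm
    have h2 := Finset.mem_univ i
    rw [h1] at h2
    simpa using h2
  have hcov : ∀ i, i ∈ T v ∨ i ∈ T q := by
    intro i
    rw [hTv, hTq]
    simp only [mem_insert_iff, mem_singleton_iff]
    have := hall i
    tauto
  simp only [List.nodup_cons, List.mem_cons, List.not_mem_nil, or_false, not_or, List.nodup_nil,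
    and_true, not_false_eq_true] at hnd
  obtain ⟨⟨hab, hac, had, hae, haf⟩, ⟨hbc, hbd, hbe, hbf⟩, ⟨hcd, hce, hcf⟩, ⟨hde, hdf⟩, hef⟩ := hnd
  have hdis : Disjoint (T v) (T q) := by
    rw [hTv, hTq, Set.disjoint_left]
    intro i hi hi'
    simp only [mem_insert_iff, mem_singleton_iff] at hi hi'
    rcases hi with rfl | rfl | rfl <;> rcases hi' with h1 | h1 | h1 <;> simp_all
  have hvq : v ≠ q := by
    rintro rfl
    have h1 : e ∈ T v := by rw [hTv]; simp
    exact Set.disjoint_left.1 hdis h1 h1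
  have h3v : (T v).ncard ≤ 3 := by
    rw [hTv]; exact (ncard_insert_le _ _).trans (by rw [ncard_pair hab])
  have h3q : (T q).ncard ≤ 3 := by
    rw [hTq]; exact (ncard_insert_le _ _).trans (by rw [ncard_pair hcd])
  obtain ⟨g1, g2, g3, g4⟩ := rh_geo hv hq hvq hop
  refine ⟨?_, ?_⟩
  · exact h.rh_side h3v h3q hcov hdis hvq g1 g2 g3 hTv (Ne.symm hae) (Ne.symm hbe) hab g4 hAv h4
  · exact h.rh_side h3q h3v (fun i => (hcov i).symm) hdis.symm hvq.symm g2 g1
      (by rw [add_comm]; exact g3) hTq (Ne.symm hcf) (Ne.symm hdf) hcd g4 hAq h4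

end Irr

end Vale.Agent.P032.Six
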