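import Vale.Agent.P032.S5.H80.Anti
import Vale.Agent.P032.S5.H394.Ends

/-!
# P032: the third edge at a vertex (LP3)

`v` has three colours and is an end of exact arcs of the circles about three centres `z`, `w`, `c`
(with three different pairs).  The three edges of `v` are in no open half plane:
`o c (c - v) + a o z (z - v) + b o w (w - v) = 0` with `a, b ≥ 0`.
-/

open Set Filter Topology Metric

noncomputable section

namespace Vale.Agent.P032.Six

variable {k : ℕ} {U : Fin k → Set ℂ} {T : ℂ → Set (Fin k)}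

theorem cr_swap172 (x y : ℂ) : cr x y = -cr y x := by unfold cr; ring

/-- the squared distance from a point to a point moving on a unit circle -/
theorem sq_rot172 (c v z : ℂ) (o t : ℝ) :
    dist (c + (v - c) * cis (-(o * t))) z ^ 2 =
      dist v c ^ 2 + dist c z ^ 2 + 2 * ip (c - z) (v - c) * Real.cos (o * t)
        - 2 * cr (c - v) (z - v) * Real.sin (o * t) := by
  rw [sq_dist, sq_dist, sq_dist]
  simp only [ip, cr, Complex.add_re, Complex.add_im, Complex.sub_re, Complex.sub_im,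
    Complex.mul_re, Complex.mul_im, cis_re, cis_im, Real.cos_neg, Real.sin_neg]
  have h := Real.sin_sq_add_cos_sq (o * t)
  linear_combination ((v.re - c.re) ^ 2 + (v.im - c.im) ^ 2) * h

theorem hasDerivAt_rot172 (c v z : ℂ) (o : ℝ) :
    HasDerivAt (fun t : ℝ => dist (c + (v - c) * cis (-(o * t))) z ^ 2)
      (-2 * (o * cr (c - v) (z - v))) 0 := by
  have h : (fun t : ℝ => dist (c + (v - c) * cis (-(o * t))) z ^ 2) = fun t : ℝ =>
      dist v c ^ 2 + dist c z ^ 2 + 2 * ip (c - z) (v - c) * Real.cos (o * t)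
        - 2 * cr (c - v) (z - v) * Real.sin (o * t) := by
    funext t; exact sq_rot172 c v z o t
  rw [h]
  have h0 : HasDerivAt (fun t : ℝ => o * t) (o * 1) 0 := (hasDerivAt_id (0 : ℝ)).const_mul o
  have h1 : HasDerivAt (fun t : ℝ => Real.cos (o * t)) (-Real.sin (o * 0) * (o * 1)) 0 := h0.cos
  have h2 : HasDerivAt (fun t : ℝ => Real.sin (o * t)) (Real.cos (o * 0) * (o * 1)) 0 := h0.sin
  refine (((hasDerivAt_const (0 : ℝ) (dist v c ^ 2 + dist c z ^ 2)).add
    (h1.const_mul (2 * ip (c - z) (v - c)))).sub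
    (h2.const_mul (2 * cr (c - v) (z - v)))).congr_deriv ?_
  rw [mul_zero, Real.sin_zero, Real.cos_zero]
  ring

/-- an arc on one side of the circle about `z`: the sign of the edge -/
theorem side_sign172 {z v c : ℂ} {o σ : ℝ} (hvz : dist v z = 1)
    (hs : ∀ᶠ t : ℝ in 𝓝[>] 0, 0 ≤ σ * (dist (c + (v - c) * cis (-(o * t))) z - 1)) :
    σ * (o * cr (c - v) (z - v)) ≤ 0 := by
  have hd := ((hasDerivAt_rot172 c v z o).const_mul σ).tendsto_slope_zero_right
  have h0 : 0 ≤ σ * (-2 * (o * cr (c - v) (z - v))) := by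
    refine ge_of_tendsto hd ?_
    filter_upwards [hs, self_mem_nhdsWithin] with t ht ht0
    have ht0' : (0 : ℝ) < t := ht0
    have e0 : dist (c + (v - c) * cis (-(o * 0))) z = 1 := by
      have : c + (v - c) * cis (-(o * 0)) = v := by
        rw [mul_zero, neg_zero, cis_zero394, mul_one, add_sub_cancel]
      rw [this, hvz]
    rw [smul_eq_mul]
    refine mul_nonneg (inv_nonneg.2 ht0'.le) ?_
    rw [zero_add, e0]
    have hD := dist_nonneg (x := c + (v - c) * cis (-(o * t))) (y := z)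
    have : σ * dist (c + (v - c) * cis (-(o * t))) z ^ 2 - σ * 1 ^ 2 =
        (σ * (dist (c + (v - c) * cis (-(o * t))) z - 1)) *
          (dist (c + (v - c) * cis (-(o * t))) z + 1) := by ring
    rw [this]
    exact mul_nonneg ht (by linarith)
  linarith

/-- the colours of the arc near an end: `∀ᶠ t` form -/
theorem OEnd.arc_ev172 {z v : ℂ} {o : ℝ} (h : OEnd T z v o) :
    ∀ᶠ t : ℝ in 𝓝[>] 0, T (z + (v - z) * cis (-(o * t))) = T z ∩ T v := by
  obtain ⟨-, -, -, -, -, ε, hε, harc⟩ := h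
  exact mem_nhdsGT_iff_exists_Ioo_subset.2 ⟨ε, hε, fun t ht => harc t ht⟩

theorem tendsto_rot172 (z v : ℂ) (o : ℝ) :
    Tendsto (fun t : ℝ => z + (v - z) * cis (-(o * t))) (𝓝[>] 0) (𝓝 v) := by
  have hc : Continuous fun t : ℝ => z + (v - z) * cis (-(o * t)) :=
    continuous_const.add (continuous_const.mul (continuous_cis.comp (by fun_prop)))
  have h1 := hc.tendsto 0
  simp only [mul_zero, neg_zero, cis_zero394, mul_one, add_sub_cancel] at h1
  exact h1.mono_left nhdsWithin_le_nhds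

/-- the sides of two arcs with the colours `x` and `y` at a point with `Sd` -/
theorem Irr.sd_signs172 (h : Irr U T) {z v c w : ℂ} {oc ow : ℝ} {x y : Fin k}
    (hvz : dist v z = 1) (hs : Sd U z v x y ∨ Sd U z v y x) (hc : OEnd T c v oc)
    (hw : OEnd T w v ow) (hx : x ∈ T c ∩ T v) (hy : y ∈ T w ∩ T v) :
    ∃ σ : ℝ, (σ = 1 ∨ σ = -1) ∧ σ * (oc * cr (c - v) (z - v)) ≤ 0 ∧
      0 ≤ σ * (ow * cr (w - v) (z - v)) := by
  have key : ∀ {σ : ℝ}, (∀ᶠ u in 𝓝 v, (x ∈ Pal U u → 0 ≤ σ * (dist u z - 1)) ∧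
      (y ∈ Pal U u → 0 ≤ -σ * (dist u z - 1))) →
      σ * (oc * cr (c - v) (z - v)) ≤ 0 ∧ 0 ≤ σ * (ow * cr (w - v) (z - v)) := by
    intro σ hσ
    constructor
    · refine side_sign172 hvz ?_
      filter_upwards [(tendsto_rot172 c v oc).eventually hσ, hc.arc_ev172] with t h1 h2
      exact h1.1 (h.sub _ (by rw [h2]; exact hx))
    · have := side_sign172 (c := w) (o := ow) (σ := -σ) hvz (by
        filter_upwards [(tendsto_rot172 w v ow).eventually hσ, hw.arc_ev172] with t h1 h2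
        exact h1.2 (h.sub _ (by rw [h2]; exact hy)))
      linarith
  rcases hs with hs | hs
  · refine ⟨-1, Or.inr rfl, key ?_⟩
    filter_upwards [hs] with u hu
    refine ⟨fun hxu => ?_, fun hyu => ?_⟩
    · have : ¬ 1 < dist u z := fun h1 => hu.1 h1 hxu
      linarith [not_lt.1 this]
    · have : ¬ dist u z < 1 := fun h1 => hu.2 h1 hyu
      linarith [not_lt.1 this]
  · refine ⟨1, Or.inl rfl, key ?_⟩
    filter_upwards [hs] with u hu
    refine ⟨fun hxu => ?_, fun hyu => ?_⟩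
    · have : ¬ dist u z < 1 := fun h1 => hu.2 h1 hxu
      linarith [not_lt.1 this]
    · have : ¬ 1 < dist u z := fun h1 => hu.1 h1 hyu
      linarith [not_lt.1 this]

/-- a centre with an end and an arc with the complementary pair is a two-pair centre -/
theorem OEnd.dpt172 {z v : ℂ} {o : ℝ} (hz : OEnd T z v o) (hz' : ∃ p, Arc T z p (T z \ T v))
    {a b : Fin k} (hab : a ≠ b) (hp : T z ∩ T v = {a, b}) : ∃ c d, DPt T z a b c d := by
  have h4 := hz.2.2.1
  have hv := hz.2.1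
  have h1 := Set.ncard_inter_add_ncard_sdiff_eq_ncard (T z) (T v) (Set.toFinite _)
  have h2 := hz.2.2.2.2.1
  obtain ⟨c, d, hcd, hcd'⟩ := Set.ncard_eq_two.1 (show (T z \ T v).ncard = 2 by omega)
  have hc : c ∈ T z \ T v := by rw [hcd']; simp
  have hd : d ∈ T z \ T v := by rw [hcd']; simp
  have ha : a ∈ T z ∩ T v := by rw [hp]; simp
  have hb : b ∈ T z ∩ T v := by rw [hp]; simp
  refine ⟨c, d, ⟨?_, ?_, ?_, ?_, ?_, hab, hcd, ?_, ?_⟩⟩
  · have h5 : T z = (T z ∩ T v) ∪ (T z \ T v) := (Set.inter_union_sdiff _ _).symm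
    rw [h5, hp, hcd']
    ext i
    simp only [mem_union, mem_insert_iff, mem_singleton_iff]
    tauto
  · rintro rfl; exact hc.2 ha.2
  · rintro rfl; exact hd.2 ha.2
  · rintro rfl; exact hc.2 hb.2
  · rintro rfl; exact hd.2 hb.2
  · obtain ⟨ho, -, -, -, -, ε, hε, harc⟩ := hz
    rw [hp] at harc
    have hyz : Dist.dist (z + (v - z) * cis (-(o * (ε / 2)))) z = 1 := by
      rw [dist_eq_norm, add_sub_cancel_left, norm_mul, norm_cis, mul_one, ← dist_eq_norm]
      exact hv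
    refine ⟨_, hyz, ?_⟩
    rw [eventually_circle hyz]
    have h3 : Continuous fun t : ℝ => ε / 2 - o * t := by fun_prop
    have h6 : ∀ᶠ t in 𝓝 (0 : ℝ), ε / 2 - o * t ∈ Ioo 0 ε := by
      refine h3.continuousAt.eventually (Ioo_mem_nhds ?_ ?_)
      · simpa using hε
      · simp only [mul_zero, sub_zero]; linarith
    filter_upwards [h6] with t ht
    rw [← harc _ ht]
    congr 1
    rw [add_sub_cancel_left, mul_assoc, ← cis_add394]
    congr 3
    rcases ho with rfl | rfl <;> ring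
  · rw [← hcd']; exact hz'

/-- the pair missing one colour of `T v` -/
theorem OEnd.pair172 {z v : ℂ} {o : ℝ} (hz : OEnd T z v o) {x y r : Fin k} (hxy : x ≠ y)
    (hx : x ∈ T v) (hy : y ∈ T v) (hr : r ∈ T v) (hxr : x ≠ r) (hyr : y ≠ r) (hrz : r ∉ T z) :
    T z ∩ T v = {x, y} := by
  have hTv : T v = {x, y, r} := by
    symm
    refine Set.eq_of_subset_of_ncard_le ?_ ?_ (Set.toFinite _)
    · rintro i (rfl | rfl | hi)
      · exact hx
      · exact hy
      · rw [mem_singleton_iff] at hi; subst hi; exact hr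
    · rw [hz.2.2.2.1, Set.ncard_eq_three.2 ⟨x, y, r, hxy, hxr, hyr, rfl⟩]
  refine Set.eq_of_subset_of_ncard_le ?_ ?_ (Set.toFinite _)
  · rintro i ⟨hi1, hi2⟩
    rw [hTv] at hi2
    rcases hi2 with rfl | rfl | hi2
    · simp
    · simp
    · rw [mem_singleton_iff] at hi2; subst hi2; exact absurd hi1 hrz
  · rw [hz.2.2.2.2.1, Set.ncard_pair hxy]

theorem OEnd.missing172 {z v : ℂ} {o : ℝ} (hz : OEnd T z v o) : ∃ r ∈ T v, r ∉ T z := by
  by_contra hcon
  push Not at hcon
  have h1 : T z ∩ T v = T v := Set.inter_eq_right.2 hcon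
  have h2 := hz.2.2.2.2.1
  rw [h1, hz.2.2.2.1] at h2
  omega

/-- algebra of the third edge -/
theorem edge_algebra172 {Z W C : ℂ} {oz ow oc σ τ : ℝ} (hoz : oz = 1 ∨ oz = -1)
    (how : ow = 1 ∨ ow = -1) (hσ : σ = 1 ∨ σ = -1) (hτ : τ = 1 ∨ τ = -1)
    (h0 : cr Z W ≠ 0) (h1 : σ * (oc * cr C Z) ≤ 0) (h2 : 0 ≤ σ * (ow * cr W Z))
    (h3 : τ * (oc * cr C W) ≤ 0) (h4 : 0 ≤ τ * (oz * cr Z W)) :
    ∃ a b : ℝ, 0 ≤ a ∧ 0 ≤ b ∧
      (oc : ℂ) * C + (a : ℂ) * ((oz : ℂ) * Z) + (b : ℂ) * ((ow : ℂ) * W) = 0 := by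
  have hoz2 : oz * oz = 1 := by rcases hoz with rfl | rfl <;> norm_num
  have how2 : ow * ow = 1 := by rcases how with rfl | rfl <;> norm_num
  have hσ2 : σ * σ = 1 := by rcases hσ with rfl | rfl <;> norm_num
  have hτ2 : τ * τ = 1 := by rcases hτ with rfl | rfl <;> norm_num
  refine ⟨oz * (oc * cr W C) / cr Z W, ow * (oc * cr C Z) / cr Z W, ?_, ?_, ?_⟩
  · have e : oz * (oc * cr W C) / cr Z W = (-(τ * (oc * cr C W))) * (τ * (oz * cr Z W)) /
        (cr Z W) ^ 2 := by
      rw [div_eq_div_iff h0 (pow_ne_zero 2 h0), cr_swap172 W C]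
      linear_combination (oz * oc * cr C W * (cr Z W) ^ 2) * hτ2
    rw [e]
    exact div_nonneg (mul_nonneg (by linarith) h4) (sq_nonneg _)
  · have e : ow * (oc * cr C Z) / cr Z W = (-(σ * (oc * cr C Z))) * (σ * (ow * cr W Z)) /
        (cr Z W) ^ 2 := by
      rw [div_eq_div_iff h0 (pow_ne_zero 2 h0), cr_swap172 W Z]
      linear_combination (-(ow * oc * cr C Z * (cr Z W) ^ 2)) * hσ2
    rw [e]
    exact div_nonneg (mul_nonneg (by linarith) h2) (sq_nonneg _)
  · have hre : oc * C.re + oz * (oc * cr W C) / cr Z W * (oz * Z.re) +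
        ow * (oc * cr C Z) / cr Z W * (ow * W.re) = 0 := by
      field_simp
      unfold cr
      linear_combination (oc * (W.re * C.im - W.im * C.re) * Z.re) * hoz2 +
        (oc * (C.re * Z.im - C.im * Z.re) * W.re) * how2
    have him : oc * C.im + oz * (oc * cr W C) / cr Z W * (oz * Z.im) +
        ow * (oc * cr C Z) / cr Z W * (ow * W.im) = 0 := by
      field_simp
      unfold cr
      linear_combination (oc * (W.re * C.im - W.im * C.re) * Z.im) * hoz2 +
        (oc * (C.re * Z.im - C.im * Z.re) * W.im) * how2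
    apply Complex.ext
    · simpa using hre
    · simpa using him

/-- **(LP3)** the third edge at a vertex: `z`, `w` two-pair centres, `c` a third centre -/
theorem Irr.lp3 (h : Irr U T) {v z w c : ℂ} {oz ow oc : ℝ} (hz : OEnd T z v oz)
    (hw : OEnd T w v ow) (hc : OEnd T c v oc) (hz' : ∃ p, Arc T z p (T z \ T v))
    (hw' : ∃ p, Arc T w p (T w \ T v)) (hzw : z ≠ w) (hzw2 : z + w ≠ 2 * v)
    (h1 : T z ∩ T v ≠ T w ∩ T v) (h2 : T c ∩ T v ≠ T z ∩ T v) (h3 : T c ∩ T v ≠ T w ∩ T v) :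
    ∃ a b : ℝ, 0 ≤ a ∧ 0 ≤ b ∧
      (oc : ℂ) * (c - v) + (a : ℂ) * ((oz : ℂ) * (z - v)) + (b : ℂ) * ((ow : ℂ) * (w - v)) = 0 := by
  obtain ⟨r, hr, hrz⟩ := hz.missing172
  obtain ⟨p, hp, hpw⟩ := hw.missing172
  obtain ⟨s, hs, hsc⟩ := hc.missing172
  have hv3 := hz.2.2.2.1
  -- a pair is determined by the missing colour
  have huniq : ∀ {x y : ℂ} {o o' : ℝ} {i : Fin k}, OEnd T x v o → OEnd T y v o' → i ∈ T v →
      i ∉ T x → i ∉ T y → T x ∩ T v = T y ∩ T v := by
    intro x y o o' i hx hy hi hix hiy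
    have e : ∀ {x : ℂ} {o : ℝ}, OEnd T x v o → i ∉ T x → T x ∩ T v = T v \ {i} := by
      intro x o hx hix
      refine Set.eq_of_subset_of_ncard_le ?_ ?_ (Set.toFinite _)
      · rintro j ⟨hj1, hj2⟩
        refine ⟨hj2, fun hji => ?_⟩
        rw [mem_singleton_iff] at hji
        subst hji
        exact hix hj1
      · rw [hx.2.2.2.2.1, Set.ncard_sdiff_singleton_of_mem hi, hv3]
    rw [e hx hix, e hy hiy]
  have hrp : r ≠ p := by rintro rfl; exact h1 (huniq hz hw hr hrz hpw)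
  have hsr : s ≠ r := by rintro rfl; exact h2 (huniq hc hz hs hsc hrz)
  have hsp : s ≠ p := by rintro rfl; exact h3 (huniq hc hw hs hsc hpw)
  have ez : T z ∩ T v = {p, s} := hz.pair172 hsp.symm hp hs hr hrp.symm hsr hrz
  have ew : T w ∩ T v = {r, s} := hw.pair172 hsr.symm hr hs hp hrp hsp hpw
  have ec : T c ∩ T v = {p, r} := hc.pair172 hrp.symm hp hr hs hsp.symm hsr.symm hsc
  obtain ⟨c1, d1, hD1⟩ := hz.dpt172 hz' hsp.symm ez
  obtain ⟨c2, d2, hD2⟩ := hw.dpt172 hw' hsr.symm ew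
  obtain ⟨σ, hσ, g1, g2⟩ := h.sd_signs172 (x := p) (y := s) hz.2.1 (h.sides hD1 hz.2.1) hc hw
    (by rw [ec]; simp) (by rw [ew]; simp)
  obtain ⟨τ, hτ, g3, g4⟩ := h.sd_signs172 (x := r) (y := s) hw.2.1 (h.sides hD2 hw.2.1) hc hz
    (by rw [ec]; simp) (by rw [ez]; simp)
  have h0 : cr (z - v) (w - v) ≠ 0 := by
    intro hcr
    rcases cr_zero (by rw [← dist_eq_norm, dist_comm]; exact hz.2.1)
      (by rw [← dist_eq_norm, dist_comm]; exact hw.2.1) hcr with h5 | h5
    · exact hzw (by linear_combination h5)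
    · exact hzw2 (by linear_combination h5)
  exact edge_algebra172 hz.1 hw.1 hσ hτ h0 g1 g2 g3 g4

end Vale.Agent.P032.Six
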