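import Vale.Agent.P032.S5.H450.OneOne

/-!
# P032: complementary three coloured points on the circle of a six coloured point

`N : Nd T X z v q` (`T v = X`, `T q = Xᶜ`, `|X| = 3`, `v + q ≠ 2 z`).  If a colour of `X` is carried
by `S(z)` near `v` and a colour of `Xᶜ` near `q`, then `w = v + q - z` is a two-pair point
(`Nd.dpt_of_stay`).  If moreover all colours occur at `z`, then `v` is the only `X`-point and `q`
the only `Xᶜ`-point of `S(w)`, which is impossible if `S(w)` is clean (`compl6`).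
-/

open Set Filter Topology Metric

noncomputable section

namespace Vale.Agent.P032.S5.H450

open Vale.Agent.P032.Six

variable {U : Fin 6 → Set ℂ} {T : ℂ → Set (Fin 6)} {X : Set (Fin 6)} {z v q : ℂ} {s t : Fin 6}

namespace Nd

/-- the colour which stays at the first end is not a colour of the second centre -/
theorem miss_v (h : Irr U T) (N : Nd T X z v q) (sv : Stay T z v s) : s ∉ T (v + q - z) := by
  have h1 := N.swap.miss h sv
  rwa [add_comm q v] at h1

/-- **The second centre is a two-pair point.** -/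
theorem dpt_of_stay (h : Irr U T) (N : Nd T X z v q) (hs : s ∈ X) (ht : t ∈ Xᶜ)
    (sv : Stay T z v s) (sq : Stay T z q t) : ∃ a b c d, DPt T (v + q - z) a b c d := by
  set w := v + q - z with hw
  have Nw : Nd T X w v q := N.other
  have hsw : s ∉ T w := N.miss_v h sv
  have htw : t ∉ T w := N.miss h sq
  have k1 := Nw.two_sdiff hs
  have k2 := Nw.swap.two_sdiff ht
  obtain ⟨g, -, hg, hgP⟩ := Nw.acc h hs hsw univ univ_mem
  obtain ⟨g', -, hg', hgP'⟩ := Nw.swap.acc h ht htw univ univ_mem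
  have r1 := Nw.rest h hs hsw
  have r2 := Nw.swap.rest h ht htw
  obtain ⟨a, b, hab, e1⟩ := Set.ncard_eq_two.1 k1
  obtain ⟨c, d, hcd, e2⟩ := Set.ncard_eq_two.1 k2
  have ne : ∀ {i j : Fin 6}, i ∈ ({a, b} : Set (Fin 6)) → j ∈ ({c, d} : Set (Fin 6)) → i ≠ j := by
    rintro i j hi hj rfl
    rw [← e1] at hi
    rw [← e2] at hj
    exact hj.1 hi.1
  refine ⟨a, b, c, d, ?_, ne (by simp) (by simp), ne (by simp) (by simp), ne (by simp) (by simp),
    ne (by simp) (by simp), hab, hcd, ⟨g, hg, by rw [e1] at hgP; exact hgP⟩,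
    ⟨g', hg', by rw [e2] at hgP'; exact hgP'⟩⟩
  refine Subset.antisymm (fun i hi => ?_) ?_
  · by_cases hiX : i ∈ X
    · have h1 : i ∈ X \ {s} := ⟨hiX, fun h5 => hsw (by rw [mem_singleton_iff] at h5; exact h5 ▸ hi)⟩
      rw [e1] at h1
      rcases h1 with rfl | h1
      · simp
      · rw [mem_singleton_iff] at h1; rw [h1]; simp
    · have h1 : i ∈ Xᶜ \ {t} := ⟨hiX, fun h5 => htw (by rw [mem_singleton_iff] at h5; exact h5 ▸ hi)⟩
      rw [e2] at h1
      rcases h1 with rfl | h1
      · simp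
      · rw [mem_singleton_iff] at h1; rw [h1]; simp
  · rw [e1] at r1
    rw [e2] at r2
    rintro i (rfl | rfl | rfl | rfl)
    · exact r1 (by simp)
    · exact r1 (by simp)
    · exact r2 (by simp)
    · exact r2 (by simp)

/-- `q` is an isolated `Xᶜ`-point of the second circle -/
theorem iso_q (h : Irr U T) (N : Nd T X z v q) (hs : s ∈ X) (sv : Stay T z v s) :
    ∀ᶠ y in 𝓝[sphere (v + q - z) 1] q, T y = Xᶜ → y = q := by
  set w := v + q - z with hw
  have Nw : Nd T X w v q := N.other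
  have hsw : s ∉ T w := N.miss_v h sv
  have h2 : ∀ᶠ y in 𝓝 q, v + y ≠ 2 * w := by
    have hc : Continuous fun y : ℂ => v + y := by fun_prop
    exact hc.continuousAt.eventually (isOpen_ne.mem_nhds Nw.op)
  have h3 : ∀ᶠ y in 𝓝 q, (v + y - w) + z ≠ 2 * v := by
    have hc : Continuous fun y : ℂ => (v + y - w) + z := by fun_prop
    refine hc.continuousAt.eventually (isOpen_ne.mem_nhds ?_)
    intro h4
    have h5 : z = v := by linear_combination (1 / 2 : ℂ) * h4 + (1 / 2 : ℂ) * hw
    have h6 := N.dv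
    rw [h5, dist_self] at h6
    exact zero_ne_one h6
  filter_upwards [mem_nhdsWithin_of_mem_nhds h2, mem_nhdsWithin_of_mem_nhds h3,
    self_mem_nhdsWithin] with y h4 h5 h6 h7
  have Ny : Nd T X w v y := ⟨N.hX, Nw.dv, by rw [dist_comm]; exact h6, N.Tv, h7, h4⟩
  by_contra hyq
  have h8 : s ∉ T (v + y - w) := by
    intro h9
    rcases sv.line h N.dv Ny.other.dv h9 with h10 | h10
    · exact hyq (by linear_combination h10 - hw)
    · exact h5 h10
  exact Ny.ne_other (Ny.other.unique h Nw hs h8 hsw)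

/-- **`v` is the only `X`-point of the second circle.** -/
theorem uniq_v (h : Irr U T) (N : Nd T X z v q) (hs : s ∈ X) (ht : t ∈ Xᶜ)
    (sv : Stay T z v s) (sq : Stay T z q t) (hXz : Xᶜ ⊆ T z) {x : ℂ}
    (hx : dist x (v + q - z) = 1) (hTx : T x = X) : x = v := by
  set w := v + q - z with hw
  have Nw : Nd T X w v q := N.other
  have htw : t ∉ T w := N.miss h sq
  have hwz : w ≠ z := N.ne_other
  have Nx : Nd T X w x q :=
    ⟨N.hX, by rw [dist_comm]; exact hx, Nw.dq, hTx, N.Tq, Nw.anti_x h ht htw hx hTx⟩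
  have Np := Nx.other
  set p := x + q - w with hp
  by_contra hxv
  have hpw : p ≠ w := Nx.ne_other
  have hpz : p ≠ z := fun h1 => hxv (by linear_combination h1 - hp + hw)
  have htp : t ∈ T p := by
    by_contra h1
    exact hpw (Np.swap.unique h Nw.swap ht h1 htw)
  have hpz2 : p + z = 2 * q := by
    rcases sq.line h N.dq Np.dq htp with h1 | h1
    · exact absurd h1 hpz
    · exact h1
  by_cases hheavy : Xᶜ ⊆ T p
  · exact Nw.swap.no_tangent h ht htw (N.iso_q h hs sv) N.dq (by linear_combination hpz2) hXz hheavy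
  · obtain ⟨r, hr, hrp⟩ : ∃ r ∈ Xᶜ, r ∉ T p := by
      by_contra hcon
      push Not at hcon
      exact hheavy hcon
    have hrt : r ≠ t := fun h1 => hrp (h1 ▸ htp)
    have h1 : Stay T z q r := Np.swap.stay h hr hrp (Ne.symm hpz) (sdiff_subset.trans hXz)
    have h2 : r ∈ T w := Nw.swap.rest h ht htw ⟨hr, hrt⟩
    rcases h1.line h N.dq Nw.dq h2 with h3 | h3
    · exact hwz h3
    · exact N.ne (by linear_combination h3 - hw)

end Nd

/-- **Complement rule (R6)**: a centre `z` with all six colours has no two non-antipodal points `v`,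
`q` on its circle with complementary palettes of three colours, a colour of each of which is
carried by `S(z)`, if the two-pair points have clean circles. -/
theorem compl6 (h : Irr U T)
    (hmin : ∀ z, 4 ≤ (T z).ncard → ∀ s, s ⊆ T z → s ≠ T z →
      ¬ ∀ᶠ w in 𝓝 z, ∃ i ∈ s, w ∈ U i ∨ (w ∈ XX U ∧ i ∈ Pal U w))
    (hcl : ∀ w a b c d, DPt T w a b c d → ∀ y, dist y w = 1 → (T y).ncard ≤ 3)
    (h6 : ∀ i, i ∈ T z) (hX : X.ncard = 3) (hv : dist v z = 1) (hq : dist q z = 1)
    (hTv : T v = X) (hTq : T q = Xᶜ) (hne : v + q ≠ 2 * z) (hs : s ∈ X) (ht : t ∈ Xᶜ)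
    (sv : Stay T z v s) (sq : Stay T z q t) : False := by
  have N : Nd T X z v q :=
    ⟨hX, by rw [dist_comm]; exact hv, by rw [dist_comm]; exact hq, hTv, hTq, hne⟩
  obtain ⟨a, b, c, d, hD⟩ := N.dpt_of_stay h hs ht sv sq
  have h3 := hcl _ a b c d hD
  set w := v + q - z with hw
  have Nw : Nd T X w v q := N.other
  have hsw : s ∉ T w := N.miss_v h sv
  have htw : t ∉ T w := N.miss h sq
  have hx : ∀ x, dist x w = 1 → T x = X → x = v := fun x h1 h2 =>
    N.uniq_v h hs ht sv sq (fun i _ => h6 i) h1 h2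
  have hy : ∀ y, dist y w = 1 → T y = Xᶜ → y = q ∨ y = q := by
    intro y h1 h2
    refine Or.inl (N.swap.uniq_v h (s := t) (t := s) ht (by rw [compl_compl]; exact hs) sq sv
      (fun i _ => h6 i) ?_ h2)
    rw [add_comm q v]
    exact h1
  obtain ⟨α, β, γ, hα, hβ, hγ, e⟩ := L3_node h hmin Nw (s := q) h3 hs hsw ht htw hx hy
  -- the two unit vectors are opposite
  have e1 : (α : ℂ) * (v - w) = -(((β + γ : ℝ) : ℂ) * (q - w)) := by
    push_cast
    linear_combination e
  have n1 : ‖v - w‖ = 1 := by rw [← dist_eq_norm]; exact Nw.dvc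
  have n2 : ‖q - w‖ = 1 := by rw [← dist_eq_norm]; exact Nw.swap.dvc
  have e2 := congrArg norm e1
  rw [norm_neg, norm_mul, norm_mul, n1, n2, mul_one, mul_one, Complex.norm_real, Complex.norm_real,
    Real.norm_of_nonneg hα.le, Real.norm_of_nonneg (by positivity)] at e2
  rw [e2] at e1
  have hne0 : ((β + γ : ℝ) : ℂ) ≠ 0 := by
    rw [Ne, Complex.ofReal_eq_zero]
    positivity
  have e3 : v - w = -(q - w) := by
    refine mul_left_cancel₀ hne0 ?_
    rw [e1]; ring
  exact Nw.op (by linear_combination e3)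

/-- the complement rule without two-pair points -/
theorem compl6_noD (h : Irr U T) (hnoD : ∀ w a b c d, ¬ DPt T w a b c d) (hX : X.ncard = 3)
    (hv : dist v z = 1) (hq : dist q z = 1) (hTv : T v = X) (hTq : T q = Xᶜ)
    (hne : v + q ≠ 2 * z) (hs : s ∈ X) (ht : t ∈ Xᶜ) (sv : Stay T z v s) (sq : Stay T z q t) :
    False := by
  have N : Nd T X z v q :=
    ⟨hX, by rw [dist_comm]; exact hv, by rw [dist_comm]; exact hq, hTv, hTq, hne⟩
  obtain ⟨a, b, c, d, hD⟩ := N.dpt_of_stay h hs ht sv sq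
  exact hnoD _ a b c d hD

end Vale.Agent.P032.S5.H450
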