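import Vale.Agent.P032.S5.H172.LP3N
import Vale.Agent.P032.S5.H12.Fld2

/-!
# P032: (LP3) as the field of the network structure, for `EE` and `ore`
-/

open Set Filter Topology Metric

noncomputable section

namespace Vale.Agent.P032.Six

variable {U : Fin 6 → Set ℂ} {T : ℂ → Set (Fin 6)}

/-- **(LP3)**, the field of the network structure -/
theorem EE.lp3 (h : Irr U T) (h4 : ∀ z, (T z).ncard ≤ 4) {z v q c p : ℂ} (hv : EE T z v)
    (hq : EE T z q) (hc : T q = (T v)ᶜ) (hcv : EE T c v) (hcp : EE T c p) (hp : T p = (T v)ᶜ)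
    (hcz : c ≠ z) (hcw : c ≠ v + q - z) :
    ∃ a b : ℝ, 0 ≤ a ∧ 0 ≤ b ∧
      ((ore T c v : ℝ) : ℂ) * (c - v) + (a : ℂ) * (((ore T z v : ℝ) : ℂ) * (z - v))
        + (b : ℂ) * (((ore T (v + q - z) v : ℝ) : ℂ) * (q - z)) = 0 :=
  h.lp3_net (ore_spec hv.1) (ore_spec hq.1) hc (ore_spec (EE.rh h h4 hv hq hc).1)
    (ore_spec (EE.rh' h h4 hv hq hc).1) (ore_spec hcv.1) (ore_spec hcp.1) hp hcz hcw

end Vale.Agent.P032.Six
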