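import Vale.Agent.P032.S5.H172.LP3
import Vale.Agent.P032.S5.H12.En

/-!
# P032: (LP3) in the form of the field of the network structure
-/

open Set Filter Topology Metric

noncomputable section

namespace Vale.Agent.P032.Six

/-- there is an exact arc near an end -/
theorem exists_arc_of_OEnd172 {k : ℕ} {T : ℂ → Set (Fin k)} {z v : ℂ} {o : ℝ}
    (hz : OEnd T z v o) : ∃ p, Arc T z p (T z ∩ T v) := by
  have hv := hz.2.1
  obtain ⟨ho, -, -, -, -, ε, hε, harc⟩ := hz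
  have hyz : dist (z + (v - z) * cis (-(o * (ε / 2)))) z = 1 := by
    rw [dist_eq_norm, add_sub_cancel_left, norm_mul, norm_cis, mul_one, ← dist_eq_norm]
    exact hv
  refine ⟨_, hyz, ?_⟩
  rw [eventually_circle hyz]
  have h3 : Continuous fun t : ℝ => ε / 2 - o * t := by fun_prop
  have h6 : ∀ᶠ t in 𝓝 (0 : ℝ), ε / 2 - o * t ∈ Ioo 0 ε := by
    refine h3.continuousAt.eventually (Ioo_mem_nhds ?_ ?_)
    · simpa using hε
    · simp only [mul_zero, sub_zero]; linarith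
  filter_upwards [h6] with t ht
  rw [← harc _ ht]
  congr 1
  rw [add_sub_cancel_left, mul_assoc, ← cis_add394]
  congr 3
  rcases ho with rfl | rfl <;> ring

variable {U : Fin 6 → Set ℂ} {T : ℂ → Set (Fin 6)}

theorem OEnd.en172 {z v : ℂ} {o : ℝ} (hz : OEnd T z v o) : En T (T v) z v := by
  obtain ⟨ho, hv, h4, -, h2, ε, hε, harc⟩ := hz
  exact ⟨rfl, h4, h2, hv, o, ε, ho, hε, harc⟩

theorem exists_compl_arc172 {z v q : ℂ} {o : ℝ} (hq : OEnd T z q o) (hqv : T q = (T v)ᶜ) :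
    ∃ p, Arc T z p (T z \ T v) := by
  obtain ⟨p, hp⟩ := exists_arc_of_OEnd172 hq
  rw [hqv, ← sdiff_eq] at hp
  exact ⟨p, hp⟩

/-- **(LP3)** in the form of the network structure -/
theorem Irr.lp3_net (h : Irr U T) {z v q c p : ℂ} {oz oq ow ow' oc op : ℝ} (hzv : OEnd T z v oz)
    (hzq : OEnd T z q oq) (hqv : T q = (T v)ᶜ) (hwv : OEnd T (v + q - z) v ow)
    (hwq : OEnd T (v + q - z) q ow') (hcv : OEnd T c v oc) (hcp : OEnd T c p op)
    (hpv : T p = (T v)ᶜ) (hcz : c ≠ z) (hcw : c ≠ v + q - z) :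
    ∃ a b : ℝ, 0 ≤ a ∧ 0 ≤ b ∧
      (oc : ℂ) * (c - v) + (a : ℂ) * ((oz : ℂ) * (z - v)) + (b : ℂ) * ((ow : ℂ) * (q - z)) = 0 := by
  have hX : (T v).ncard = 3 := hzv.2.2.2.1
  have eq' : ∀ {z' q' : ℂ} {o : ℝ}, T q' = (T v)ᶜ → OEnd T z' q' o → En T (T v)ᶜ z' q' := by
    intro z' q' o h1 h2
    have := h2.en172
    rwa [h1] at this
  have hnev : v ≠ q := hzv.en172.ne hX (eq' hqv hzq)
  have hanti := h.en_anti hX hzv.en172 (eq' hqv hzq)
  have hzw : z ≠ v + q - z := by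
    intro h1
    exact hanti (by linear_combination -h1)
  have hzw2 : z + (v + q - z) ≠ 2 * v := by
    intro h1
    exact hnev (by linear_combination -h1)
  have d1 : T z ∩ T v ≠ T (v + q - z) ∩ T v := fun h1 =>
    hzw (h.en_unique hX hzv.en172 hwv.en172 (eq' hqv hzq) (eq' hqv hwq) h1)
  have d2 : T c ∩ T v ≠ T z ∩ T v := fun h1 =>
    hcz (h.en_unique hX hcv.en172 hzv.en172 (eq' hpv hcp) (eq' hqv hzq) h1)
  have d3 : T c ∩ T v ≠ T (v + q - z) ∩ T v := fun h1 =>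
    hcw (h.en_unique hX hcv.en172 hwv.en172 (eq' hpv hcp) (eq' hqv hwq) h1)
  obtain ⟨a, b, ha, hb, hab⟩ := h.lp3 hzv hwv hcv (exists_compl_arc172 hzq hqv)
    (exists_compl_arc172 hwq hqv) hzw hzw2 d1 d2 d3
  refine ⟨a, b, ha, hb, ?_⟩
  have e : v + q - z - v = q - z := by ring
  rw [e] at hab
  exact hab

end Vale.Agent.P032.Six
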