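import Vale.Agent.P032.S5.H172.Compl6
import Vale.Agent.P032.S5.H555.Penta

/-!
# P032: the fourth corner of a complementary rhombus at a six coloured point

`Irr.six_rhombus`: `|T z| = 6`, `v, q ∈ S(z)`, `T v`, `T q` complementary with three colours each,
`v + q ≠ 2 z`: the point `v + q - z` has six colours, too (no two-pair points, clean circles of
points with at least five colours).
-/

open Set Filter Topology Metric

noncomputable section

namespace Vale.Agent.P032.S5.H450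

open Vale.Agent.P032.Six

variable {U : Fin 6 → Set ℂ} {T : ℂ → Set (Fin 6)} {X : Set (Fin 6)} {z v q w : ℂ} {s t : Fin 6}

theorem no_tri5 : ∀ α β σ : Fin 5, (σ = β + 2 ∨ β = σ + 2) → (σ = α + 2 ∨ α = σ + 2) →
    (β = α + 2 ∨ α = β + 2) → False := by decide

namespace Nd

/-- two missing colours, one of each side: a two-pair point -/
theorem dpt_of_miss (h : Irr U T) (Nw : Nd T X w v q) (hs : s ∈ X) (ht : t ∈ Xᶜ)
    (hsw : s ∉ T w) (htw : t ∉ T w) : ∃ a b c d, DPt T w a b c d := by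
  have k1 := Nw.two_sdiff hs
  have k2 := Nw.swap.two_sdiff ht
  obtain ⟨g, -, hg, hgP⟩ := Nw.acc h hs hsw univ univ_mem
  obtain ⟨g', -, hg', hgP'⟩ := Nw.swap.acc h ht htw univ univ_mem
  have r1 := Nw.rest h hs hsw
  have r2 := Nw.swap.rest h ht htw
  obtain ⟨a, b, hab, e1⟩ := Set.ncard_eq_two.1 k1
  obtain ⟨c, d, hcd, e2⟩ := Set.ncard_eq_two.1 k2
  have ne : ∀ {i j : Fin 6}, i ∈ ({a, b} : Set (Fin 6)) → j ∈ ({c, d} : Set (Fin 6)) → i ≠ j := by
    rintro i j hi hj rfl
    rw [← e1] at hi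
    rw [← e2] at hj
    exact hj.1 hi.1
  refine ⟨a, b, c, d, ?_, ne (by simp) (by simp), ne (by simp) (by simp), ne (by simp) (by simp),
    ne (by simp) (by simp), hab, hcd, ⟨g, hg, by rw [e1] at hgP; exact hgP⟩,
    ⟨g', hg', by rw [e2] at hgP'; exact hgP'⟩⟩
  refine Subset.antisymm (fun i hi => ?_) ?_
  · by_cases hiX : i ∈ X
    · have h1 : i ∈ X \ {s} := ⟨hiX, fun h5 => hsw (by rw [mem_singleton_iff] at h5; exact h5 ▸ hi)⟩
      rw [e1] at h1
      rcases h1 with rfl | h1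
      · simp
      · rw [mem_singleton_iff] at h1; rw [h1]; simp
    · have h1 : i ∈ Xᶜ \ {t} := ⟨hiX, fun h5 => htw (by rw [mem_singleton_iff] at h5; exact h5 ▸ hi)⟩
      rw [e2] at h1
      rcases h1 with rfl | h1
      · simp
      · rw [mem_singleton_iff] at h1; rw [h1]; simp
  · have h1 : X \ {s} ⊆ T w := r1
    have h2 : Xᶜ \ {t} ⊆ T w := r2
    rw [e1] at h1
    rw [e2] at h2
    rintro m (rfl | rfl | rfl | rfl)
    · exact h1 (by simp)
    · exact h1 (by simp)
    · exact h2 (by simp)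
    · exact h2 (by simp)

/-- no colour of `X` stays at `v` on the second circle if all colours occur at `z` -/
theorem not_stay (h : Irr U T) (N : Nd T X z v q) (h6 : ∀ i, i ∈ T z) (t : Fin 6) :
    ¬ Stay T (v + q - z) v t := by
  intro hs
  have Nw : Nd T X (v + q - z) v q := N.other
  rcases hs.line h Nw.dv N.dv (h6 t) with h1 | h1
  · exact N.ne_other h1.symm
  · exact N.off_other (by rw [add_comm]; exact h1)

/-- all pairs of `X` are exact on the second circle, arbitrarily near `v`, if `X ⊆ T w` -/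
theorem freq_pair (h : Irr U T) (N : Nd T X z v q) (h6 : ∀ i, i ∈ T z)
    (hXw : X ⊆ T (v + q - z)) (ht : t ∈ X) :
    ∃ᶠ p in 𝓝[sphere (v + q - z) 1] v, T p = X \ {t} := by
  have h1 : ∃ᶠ p in 𝓝[sphere (v + q - z) 1] v, t ∉ T p := by
    intro hcon
    refine N.not_stay h h6 t (hcon.mono fun p hp => ?_)
    simpa using hp
  have h2 : ∀ᶠ p in 𝓝[sphere (v + q - z) 1] v, T p ⊆ T v ∧ dist p (v + q - z) = 1 :=
    ((h.nhd v).filter_mono nhdsWithin_le_nhds).and
      (eventually_nhdsWithin_of_forall fun p hp => hp)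
  refine (h1.and_eventually h2).mono fun p hp => ?_
  obtain ⟨hp1, hp2, hp3⟩ := hp
  rw [N.Tv] at hp2
  have hsub : T p ⊆ X \ {t} := fun i hi =>
    ⟨hp2 hi, fun h5 => hp1 (by rw [mem_singleton_iff] at h5; exact h5 ▸ hi)⟩
  have hne : ∀ i, ¬ T p ⊆ {i} := by
    intro i hi
    obtain ⟨j, hj⟩ := h.ne p
    have hji : j = i := hi hj
    have h7 : i ∈ X := hp2 (hji ▸ hj)
    exact h.mx.notMem' (h.mem_of_single hi) hp3 (h.sub _ (hXw h7))
  have h2c : 2 ≤ (T p).ncard := by
    obtain ⟨j, hj⟩ := h.ne p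
    by_contra hcon
    push Not at hcon
    have h8 : (T p).ncard ≤ 1 := by omega
    rw [Set.ncard_le_one_iff] at h8
    exact hne j fun i hi => h8 hi hj
  exact Set.eq_of_subset_of_ncard_le hsub (by rw [N.two_sdiff ht]; exact h2c) (Set.toFinite _)

/-- the second circle of a six coloured point is not the circle of a five coloured point -/
theorem not_five (h : Irr U T)
    (hmin : ∀ z, 4 ≤ (T z).ncard → ∀ s, s ⊆ T z → s ≠ T z →
      ¬ ∀ᶠ w in 𝓝 z, ∃ i ∈ s, w ∈ U i ∨ (w ∈ XX U ∧ i ∈ Pal U w))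
    (N : Nd T X z v q) (h6 : ∀ i, i ∈ T z) (hXw : X ⊆ T (v + q - z))
    (h3 : ∀ y, dist y (v + q - z) = 1 → (T y).ncard ≤ 3) : (T (v + q - z)).ncard ≠ 5 := by
  intro h5
  obtain ⟨c, hc, hcr, hcp⟩ := h.penta hmin h5 h3
  obtain ⟨a, b, s, hab, has, hbs, hX⟩ := Set.ncard_eq_three.1 N.hX
  have key : ∀ t ∈ X, ∃ i, X \ {t} = {c i, c (i + 2)} := by
    intro t ht
    obtain ⟨p, hp1, hp2⟩ := ((N.freq_pair h h6 hXw ht).and_eventually
      (eventually_nhdsWithin_of_forall (s := sphere (v + q - z) 1) (a := v)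
        (p := fun p => dist p (v + q - z) = 1) fun p hp => hp)).exists
    obtain ⟨i, hi⟩ := hcp p hp2 (by rw [hp1]; exact N.two_sdiff ht)
      (by rw [hp1]; exact fun m hm => hXw hm.1)
    exact ⟨i, by rw [← hp1]; exact hi⟩
  have ha : a ∈ X := by rw [hX]; simp
  have hb : b ∈ X := by rw [hX]; simp
  have hs : s ∈ X := by rw [hX]; simp
  have hmem : ∀ {m : Fin 6}, m ∈ X → ∃ i, c i = m := by
    intro m hm
    have := hXw hm
    rw [hcr] at this
    exact this
  obtain ⟨α, rfl⟩ := hmem ha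
  obtain ⟨β, rfl⟩ := hmem hb
  obtain ⟨σ, rfl⟩ := hmem hs
  have hsub : ∀ {m n o : Fin 5} {i : Fin 5}, c m ∈ X → c n ∈ X → c m ≠ c o → c n ≠ c o →
      c m ≠ c n → X \ {c o} = {c i, c (i + 2)} → n = m + 2 ∨ m = n + 2 := by
    intro m n o i hm hn hmo hno hmn e
    have h1 : c m ∈ ({c i, c (i + 2)} : Set (Fin 6)) := by rw [← e]; exact ⟨hm, hmo⟩
    have h2 : c n ∈ ({c i, c (i + 2)} : Set (Fin 6)) := by rw [← e]; exact ⟨hn, hno⟩
    rcases h1 with h1 | h1 <;> rcases h2 with h2 | h2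
    · exact absurd (h1.trans h2.symm) hmn
    · left; rw [hc h1, hc h2]
    · right; rw [hc h1, hc h2]
    · exact absurd (h1.trans h2.symm) hmn
  obtain ⟨i1, e1⟩ := key _ ha
  obtain ⟨i2, e2⟩ := key _ hb
  obtain ⟨i3, e3⟩ := key _ hs
  have f1 := hsub hb hs (Ne.symm hab) (Ne.symm has) hbs e1
  have f2 := hsub ha hs hab (Ne.symm hbs) has e2
  have f3 := hsub ha hb has hbs hab e3
  exact no_tri5 α β σ f1 f2 f3

end Nd

end Vale.Agent.P032.S5.H450

namespace Vale.Agent.P032.Six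

open Vale.Agent.P032.S5.H450

variable {U : Fin 6 → Set ℂ} {T : ℂ → Set (Fin 6)}

/-- **The fourth corner has six colours.** -/
theorem Irr.six_rhombus (h : Irr U T)
    (hmin : ∀ z, 4 ≤ (T z).ncard → ∀ s, s ⊆ T z → s ≠ T z →
      ¬ ∀ᶠ w in 𝓝 z, ∃ i ∈ s, w ∈ U i ∨ (w ∈ XX U ∧ i ∈ Pal U w))
    (hcl : ∀ z y, 5 ≤ (T z).ncard → dist y z = 1 → (T y).ncard ≤ 3)
    (hnoD : ∀ z a b c d, ¬ DPt T z a b c d) {z v q : ℂ} (h6 : (T z).ncard = 6)
    (hv : dist v z = 1) (hq : dist q z = 1) (h3 : (T v).ncard = 3) (hc : T q = (T v)ᶜ)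
    (hne : v + q ≠ 2 * z) : (T (v + q - z)).ncard = 6 := by
  have h6' : ∀ i, i ∈ T z := by
    have h1 : T z = univ := by
      refine Set.eq_of_subset_of_ncard_le (subset_univ _) ?_ (Set.toFinite _)
      rw [h6, Set.ncard_univ, Nat.card_eq_fintype_card, Fintype.card_fin]
    intro i; rw [h1]; exact mem_univ i
  have N : Nd T (T v) z v q :=
    ⟨h3, by rw [dist_comm]; exact hv, by rw [dist_comm]; exact hq, rfl, hc, hne⟩
  have Nw : Nd T (T v) (v + q - z) v q := N.other
  have hle : (T (v + q - z)).ncard ≤ 6 := by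
    have h1 := Set.ncard_le_ncard (subset_univ (T (v + q - z))) (Set.toFinite _)
    rwa [Set.ncard_univ, Nat.card_eq_fintype_card, Fintype.card_fin] at h1
  -- one of the two sides is contained in the palette
  have side : T v ⊆ T (v + q - z) ∨ (T v)ᶜ ⊆ T (v + q - z) := by
    by_contra hcon
    rw [not_or, Set.not_subset, Set.not_subset] at hcon
    obtain ⟨⟨s, hs, hsw⟩, t, ht, htw⟩ := hcon
    obtain ⟨a, b, c, d, hD⟩ := Nw.dpt_of_miss h hs ht hsw htw
    exact hnoD _ a b c d hD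
  -- at least five colours
  have five : ∀ {X : Set (Fin 6)} {v q w : ℂ}, Nd T X w v q → X ⊆ T w → 5 ≤ (T w).ncard := by
    intro X v q w N hX
    obtain ⟨t1, a1, a2, -⟩ := N.swap.five h 0
    obtain ⟨t2, b1, b2, b3⟩ := N.swap.five h t1
    have h7 : X ∪ {t1, t2} ⊆ T w := by
      rintro m (hm | rfl | rfl)
      · exact hX hm
      · exact a1
      · exact b1
    have h8 : Disjoint X {t1, t2} := by
      rw [Set.disjoint_left]
      rintro m hm (rfl | rfl)
      · exact a2 hm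
      · exact b2 hm
    have h9 := Set.ncard_le_ncard h7 (Set.toFinite _)
    rw [Set.ncard_union_eq h8 (Set.toFinite _) (Set.toFinite _), N.hX,
      Set.ncard_pair b3.symm] at h9
    omega
  rcases side with hX | hX
  · have h5 := five Nw hX
    have h7 := N.not_five h hmin h6' hX (fun y hy => hcl _ y h5 hy)
    omega
  · have h5 := five Nw.swap hX
    have e : q + v - z = v + q - z := by ring
    have h7 := N.swap.not_five h hmin h6' (by rw [e]; exact hX)
      (fun y hy => hcl _ y (by rw [e]; exact h5) hy)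
    rw [e] at h7
    omega

end Vale.Agent.P032.Six
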